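import Vale.Agent.P372.H54.Site
import Vale.Agent.P372.Swap.Core

/-! The chain: from the corner lemma for the noise and the block lemma for products to the
linear inequality for all local filters on `n` copies. -/

open Matrix Kronecker
open scoped ComplexOrder MatrixOrder

set_option linter.unusedSectionVars false

namespace Vale.Agent.P372.H54

section Prod

variable {A A' B B' : Type} [Fintype A] [Fintype A'] [Fintype B] [Fintype B']

/-- The tensor product of two kernels. -/
def kk (κ : Ker A A') (κ' : Ker B B') : Ker (A × B) (A' × B') :=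
  fun j j' i i' => κ j.1 j'.1 i.1 i'.1 * κ' j.2 j'.2 i.2 i'.2

theorem app_kk (κ : Ker A A') (κ' : Ker B B') (X : Matrix A' A' ℂ) (Y : Matrix B' B' ℂ) :
    app (kk κ κ') (X ⊗ₖ Y) = app κ X ⊗ₖ app κ' Y := by
  ext j j'
  simp only [app, kk, kroneckerMap_apply]
  rw [Fintype.sum_prod_type, Finset.sum_mul_sum]
  refine Finset.sum_congr rfl fun i _ => Finset.sum_congr rfl fun k _ => ?_
  rw [Fintype.sum_prod_type, Finset.sum_mul_sum]
  refine Finset.sum_congr rfl fun i' _ => Finset.sum_congr rfl fun k' _ => ?_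
  ring

/-- Reindexing of a kernel. -/
def reK {I I' J J' : Type} (e : I' ≃ I) (f : J' ≃ J) (κ : Ker J I) : Ker J' I' :=
  fun j j' i i' => κ (f j) (f j') (e i) (e i')

theorem app_reK {I I' J J' : Type} [Fintype I] [Fintype I'] (e : I' ≃ I)
    (f : J' ≃ J) (κ : Ker J I) (X : Matrix I I ℂ) :
    app (reK e f κ) (X.submatrix e e) = (app κ X).submatrix f f := by
  ext j j'
  simp only [app, reK, submatrix_apply]
  rw [← Equiv.sum_comp e]
  refine Finset.sum_congr rfl fun i _ => ?_
  rw [← Equiv.sum_comp e]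

/-- `(Fin n → A × B) ≃ (Fin n → A) × (Fin n → B)` -/
def eN (A B : Type) (n : ℕ) : (Fin n → A × B) ≃ (Fin n → A) × (Fin n → B) :=
  Equiv.arrowProdEquivProdArrow (Fin n) (fun _ => A) (fun _ => B)

theorem kp_kk {n : ℕ} (κ : Fin n → Ker A A') (κ' : Fin n → Ker B B') :
    kp (fun k => kk (κ k) (κ' k)) = reK (eN A' B' n) (eN A B n) (kk (kp κ) (kp κ')) := by
  funext f f' g g'
  simp only [kp, kk, reK, Finset.prod_mul_distrib]
  rfl

theorem app_kp_kk {n : ℕ} (κ : Fin n → Ker A A') (κ' : Fin n → Ker B B')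
    (X : Matrix (Fin n → A') (Fin n → A') ℂ) (Y : Matrix (Fin n → B') (Fin n → B') ℂ) :
    app (kp fun k => kk (κ k) (κ' k)) ((X ⊗ₖ Y).submatrix (eN A' B' n) (eN A' B' n)) =
      (app (kp κ) X ⊗ₖ app (kp κ') Y).submatrix (eN A B n) (eN A B n) := by
  rw [kp_kk, app_reK, app_kk]

end Prod

section PosDef

variable {I J : Type} [Fintype I] [DecidableEq I] [Fintype J] [DecidableEq J]

theorem exists_eps {X : Matrix I I ℂ} (hX : X.PosDef) :
    ∃ e : ℝ, 0 < e ∧ (X - (e : ℂ) • (1 : Matrix I I ℂ)).PosSemidef := by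
  rcases isEmpty_or_nonempty I with h | h
  · refine ⟨1, one_pos, ?_⟩
    have h1 : X - ((1 : ℝ) : ℂ) • (1 : Matrix I I ℂ) = 0 := by
      ext i
      exact (IsEmpty.false i).elim
    rw [h1]
    exact PosSemidef.zero
  · obtain ⟨k, hk⟩ := Finite.exists_min hX.1.eigenvalues
    refine ⟨hX.1.eigenvalues k, hX.eigenvalues_pos k, ?_⟩
    have hH : (X - ((hX.1.eigenvalues k : ℝ) : ℂ) • (1 : Matrix I I ℂ)).IsHermitian := by
      refine hX.1.sub ?_
      rw [Matrix.IsHermitian, conjTranspose_smul, conjTranspose_one]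
      congr 1
      exact Complex.conj_ofReal _
    have hs := hX.1.spectral_theorem
    set U : Matrix I I ℂ := (hX.1.eigenvectorUnitary : Matrix I I ℂ) with hU
    have hUU : U * star U = 1 := by
      rw [hU]
      exact (Matrix.mem_unitaryGroup_iff).mp hX.1.eigenvectorUnitary.2
    have h1 : X - ((hX.1.eigenvalues k : ℝ) : ℂ) • (1 : Matrix I I ℂ) =
        U * diagonal (fun i => (((hX.1.eigenvalues i - hX.1.eigenvalues k : ℝ)) : ℂ)) * Uᴴ := by
      have h2 : diagonal (fun i => (((hX.1.eigenvalues i - hX.1.eigenvalues k : ℝ)) : ℂ)) =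
          diagonal (RCLike.ofReal ∘ hX.1.eigenvalues) -
            ((hX.1.eigenvalues k : ℝ) : ℂ) • (1 : Matrix I I ℂ) := by
        ext i j
        by_cases hij : i = j
        · subst hij
          simp
        · simp [hij]
      rw [h2, Matrix.mul_sub, Matrix.sub_mul, Matrix.mul_smul, Matrix.smul_mul, Matrix.mul_one,
        ← star_eq_conjTranspose, hUU]
      exact congrArg (fun N => N - ((hX.1.eigenvalues k : ℝ) : ℂ) • (1 : Matrix I I ℂ)) hs
    rw [h1]
    refine PosSemidef.mul_mul_conjTranspose_same (PosSemidef.diagonal fun i => ?_) U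
    show (0 : ℂ) ≤ _
    have h3 : 0 ≤ hX.1.eigenvalues i - hX.1.eigenvalues k := sub_nonneg.mpr (hk i)
    exact_mod_cast h3

/-- A completely positive kernel with `κ(1) ≥ c > 0` keeps positive definite matrices. -/
theorem IsCP.pd {κ : Ker J I} (h : IsCP κ) {c : ℝ} (hc : 0 < c)
    (h1 : app κ 1 = (c : ℂ) • 1) {X : Matrix I I ℂ} (hX : X.PosDef) : (app κ X).PosDef := by
  obtain ⟨e, he, h2⟩ := exists_eps hX
  have h3 := h.psd h2
  have h4 : app κ X = ((e * c : ℝ) : ℂ) • (1 : Matrix J J ℂ) +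
      app κ (X - (e : ℂ) • (1 : Matrix I I ℂ)) := by
    have h5 : X = (e : ℂ) • (1 : Matrix I I ℂ) + (X - (e : ℂ) • (1 : Matrix I I ℂ)) := by abel
    conv_lhs => rw [h5, app_add, app_smul, h1, smul_smul]
    push_cast
    rfl
  rw [h4]
  refine PosDef.add_posSemidef ?_ h3
  exact PosDef.one.smul (by exact_mod_cast mul_pos he hc)

end PosDef

section Pm

variable {I J : Type} [Fintype I] [Fintype J] {n : ℕ}

theorem app_kp_pm (κ : Fin n → Ker J I) (M : Fin n → Matrix I I ℂ) :
    app (kp κ) (pm M) = pm fun k => app (κ k) (M k) := by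
  ext f f'
  simp only [app, kp, pm, ← Finset.prod_mul_distrib]
  exact sum_prod_pi2 (fun k i i' => κ k (f k) (f' k) i i' * M k i i')

theorem pm_smul (c : Fin n → ℂ) (M : Fin n → Matrix I I ℂ) :
    (pm fun k => c k • M k) = (∏ k, c k) • pm M := by
  ext f g
  simp only [pm, Matrix.smul_apply, smul_eq_mul, Finset.prod_mul_distrib]

end Pm

/-- The properties of the noise at one site. -/
structure Good {I : Type} [Fintype I] [DecidableEq I] (T : Ker I I) : Prop where
  cp : IsCP T
  one : app T 1 = 1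
  dual_one : dual T 1 = 1

variable {A B : Type} [Fintype A] [DecidableEq A] [Fintype B] [DecidableEq B]

/-- The corner lemma for a linear map. -/
def Corner {I : Type} [Fintype I] [DecidableEq I] (S : Matrix I I ℂ → Matrix I I ℂ) : Prop :=
  ∀ θ θ' W : Matrix I I ℂ, θ.PosDef → (fromBlocks θ W Wᴴ θ').PosSemidef →
    ∃ Z : Matrix I I ℂ, Z.IsHermitian ∧ (fromBlocks (S θ) Z Z (S θ')).PosSemidef ∧
      ∀ r : ℝ, 4 * r * W.trace.re - 2 * r ^ 2 * (θ.trace.re + θ'.trace.re) ≤ Z.trace.re

theorem app_labk_one {C : Type} [Fintype C] [DecidableEq C] [Nonempty C] (V : Matrix C C ℂ)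
    (t : Bool) : app (labk V t) 1 =
      (if t then (1 / 3 : ℂ) * ((Fintype.card C : ℂ)⁻¹ * V.trace) else 2 / 3) • 1 := by
  cases t
  · simp only [labk, Bool.false_eq_true, if_false]
    have h : app ((2 / 3 : ℂ) • idk C) 1 = (2 / 3 : ℂ) • app (idk C) 1 := by
      ext j j'
      simp only [app, Pi.smul_apply, smul_eq_mul, Matrix.smul_apply, Finset.mul_sum, mul_assoc]
    rw [h, app_idk]
  · simp only [labk, if_true]
    ext j j'
    simp only [app, Pi.smul_apply, smul_eq_mul, meas, Matrix.smul_apply, Matrix.one_apply,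
      mul_ite, mul_one, mul_zero, ite_mul, zero_mul]
    by_cases h : j = j'
    · simp only [if_pos h, Finset.sum_ite_eq, Finset.mem_univ, if_true, Matrix.trace,
        Matrix.diag_apply, Finset.mul_sum]
    · simp [if_neg h]

theorem gak_prod [Nonempty A] [Nonempty B] (s : Bool) :
    gak (A × B) s = kk (if s then (1 / 3 : ℂ) • idk A else (2 / 3 : ℂ) • meas 1)
      (if s then idk B else meas 1) := by
  funext j j' i i'
  cases s
  · simp only [gak, Bool.false_eq_true, if_false, kk, Pi.smul_apply, smul_eq_mul, meas,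
      Matrix.one_apply, Fintype.card_prod, Prod.ext_iff]
    push_cast
    rw [mul_inv]
    by_cases h1 : j.1 = j'.1 <;> by_cases h2 : j.2 = j'.2 <;> by_cases h3 : i'.1 = i.1 <;>
      by_cases h4 : i'.2 = i.2 <;> simp [h1, h2, h3, h4] <;> ring
  · simp only [gak, if_true, kk, Pi.smul_apply, smul_eq_mul, idk, Prod.ext_iff]
    by_cases h1 : j.1 = i.1 <;> by_cases h2 : j.2 = i.2 <;> by_cases h3 : j'.1 = i'.1 <;>
      by_cases h4 : j'.2 = i'.2 <;> simp [h1, h2, h3, h4]

/-- **The chain**, positive definite case. -/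
theorem chain_pd [Nonempty A] [Nonempty B] {TA : Ker A A} {TB : Ker B B}
    (hTA : Good TA) (hTB : Good TB) (hT1 : app (kk TA TB) 1 = 1) (hT1' : dual (kk TA TB) 1 = 1)
    {V : Matrix (A × B) (A × B) ℂ} (hV : V.PosSemidef) (hV2 : ((2 : ℂ) • 1 - V).PosSemidef)
    (hG : (dual (kk TA TB) V).PosSemidef) {c : ℝ} (hc : 0 < c) (hVt : V.trace = (c : ℂ))
    (n : ℕ) (hS : Corner (app (kp fun _ : Fin n => kk TA TB)))
    {a₀ a₁ : Matrix (Fin n → A) (Fin n → A) ℂ} {b₀ b₁ : Matrix (Fin n → B) (Fin n → B) ℂ}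
    (ha₀ : a₀.PosSemidef) (hb₀ : b₀.PosSemidef) (ha₁ : a₁.PosDef) (hb₁ : b₁.PosDef)
    {K : Matrix (Fin n → A × B) (Fin n → A × B) ℂ}
    (hK : (fromBlocks ((a₁ ⊗ₖ b₁).submatrix (eN A B n) (eN A B n)) K Kᴴ
      ((a₀ ⊗ₖ b₀).submatrix (eN A B n) (eN A B n))).PosSemidef) :
    let R := pm fun _ : Fin n => (2 / 3 : ℂ) • (1 : Matrix (A × B) (A × B) ℂ) +
      (1 / 3 : ℂ) • dual (kk TA TB) V
    ∀ r : ℝ, 4 * r * (R * K).trace.re -
      2 * r ^ 2 * ((R * (a₁ ⊗ₖ b₁).submatrix (eN A B n) (eN A B n)).trace.re +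
        (R * (a₀ ⊗ₖ b₀).submatrix (eN A B n) (eN A B n)).trace.re) ≤
      ((R * (a₁ ⊗ₖ b₀).submatrix (eN A B n) (eN A B n)).trace.re +
        (R * (a₀ ⊗ₖ b₁).submatrix (eN A B n) (eN A B n)).trace.re) / 2 := by
  intro R μ
  classical
  set T : Ker (A × B) (A × B) := kk TA TB with hT
  set G : Matrix (A × B) (A × B) ℂ := dual T V with hGd
  set e := eN A B n with he
  set Tn : Ker (Fin n → A × B) (Fin n → A × B) := kp fun _ => T with hTn
  set x₁ := (a₁ ⊗ₖ b₁).submatrix e e with hx₁
  set x₀ := (a₀ ⊗ₖ b₀).submatrix e e with hx₀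
  -- labels
  set L : (Fin n → Bool) → Ker (Fin n → A × B) (Fin n → A × B) :=
    fun t => kp fun k => labk G (t k) with hL
  set L' : (Fin n → Bool) → Ker (Fin n → A × B) (Fin n → A × B) :=
    fun t => kp fun k => labk V (t k) with hL'
  set Th : (Fin n → Bool) → (Fin n → Bool) → Ker (Fin n → A × B) (Fin n → A × B) :=
    fun s t => kp fun k => thk V (s k) (t k) with hTh
  set Ga : (Fin n → Bool) → Ker (Fin n → A × B) (Fin n → A × B) :=
    fun s => kp fun k => gak (A × B) (s k) with hGa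
  set M : (Fin n → Bool) → Matrix (Fin n → A × B) (Fin n → A × B) ℂ :=
    fun s => pm fun k => wei V (s k) with hM
  have hLcp : ∀ t, IsCP (L t) := fun t => isCP_kp fun k => isCP_labk hG (t k)
  have hThcp : ∀ s t, IsCP (Th s t) := fun s t => isCP_kp fun k => isCP_thk hV2 (s k) (t k)
  have hMpsd : ∀ s, (M s).PosSemidef := fun s => pm_psd fun k => by
    show (wei V (s k)).PosSemidef
    unfold wei
    split_ifs
    · exact hV
    · exact PosSemidef.one
  -- identities
  have i1 : ∀ t X, app Tn (app (L t) X) = app (L' t) (app Tn X) := fun t X => by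
    rw [← app_comp, ← app_comp, hTn, hL, hL', kp_comp, kp_comp]
    congr 2
    funext k
    exact site1 hT1 V (t k)
  have i2 : ∑ t, dual (L t) 1 = R := by
    have h1 : ∀ t, dual (L t) 1 = pm fun k => dual (labk G (t k)) 1 := fun t => by
      rw [← pm_one, hL, kp_dual]
    simp only [h1]
    rw [sum_pm (fun _ b => dual (labk G b) 1)]
    simp only [site2]
    rfl
  have i3 : ∀ s X, ∑ t, app (Th s t) (app (L' t) X) = app (Ga s) X := fun s X => by
    have h1 : ∀ t, app (Th s t) (app (L' t) X) =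
        app (kp fun k => comp (thk V (s k) (t k)) (labk V (t k))) X := fun t => by
      rw [← app_comp, hTh, hL', kp_comp]
    simp only [h1]
    rw [← app_sum, sum_kp (fun k b => comp (thk V (s k) b) (labk V b))]
    simp only [site3]
    rfl
  have i4 : ∀ t, ∑ s, dual (Th s t) (M s) = 1 := fun t => by
    have h1 : ∀ s, dual (Th s t) (M s) = pm fun k => dual (thk V (s k) (t k)) (wei V (s k)) :=
      fun s => by rw [hTh, hM, kp_dual]
    simp only [h1]
    rw [sum_pm (fun k b => dual (thk V b (t k)) (wei V b))]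
    simp only [site4]
    exact pm_one
  have i5 : ∑ s, dual (Ga s) (M s) = pm fun _ => (2 / 3 : ℂ) • 1 + (1 / 3 : ℂ) • V := by
    have h1 : ∀ s, dual (Ga s) (M s) = pm fun k => dual (gak (A × B) (s k)) (wei V (s k)) :=
      fun s => by rw [hGa, hM, kp_dual]
    simp only [h1]
    rw [sum_pm (fun _ b => dual (gak (A × B) b) (wei V b))]
    simp only [site5]
  have i6 : dual Tn (pm fun _ => (2 / 3 : ℂ) • 1 + (1 / 3 : ℂ) • V) = R := by
    rw [hTn, kp_dual]
    have h1 : dual T ((2 / 3 : ℂ) • 1 + (1 / 3 : ℂ) • V) = (2 / 3 : ℂ) • 1 + (1 / 3 : ℂ) • G := by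
      have h2 : ∀ (N N' : Matrix (A × B) (A × B) ℂ) (c c' : ℂ),
          dual T (c • N + c' • N') = c • dual T N + c' • dual T N' := by
        intro N N' c c'
        ext i' i
        simp only [dual, Matrix.add_apply, Matrix.smul_apply, smul_eq_mul, Finset.mul_sum,
          ← Finset.sum_add_distrib]
        refine Finset.sum_congr rfl fun j _ => Finset.sum_congr rfl fun j' _ => ?_
        ring
      rw [h2, hT1']
    rw [h1]
  -- positivity of the constants
  have hcd : ∀ t : Fin n → Bool, ∃ r : ℝ, 0 < r ∧ app (L t) 1 = (r : ℂ) • 1 := by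
    intro t
    have hd : (0 : ℝ) < (Fintype.card (A × B) : ℝ) := by exact_mod_cast Fintype.card_pos
    have hGt : G.trace = (c : ℂ) := by
      have h1 := trace_mul_app T V 1
      rw [hT1, Matrix.mul_one, Matrix.mul_one] at h1
      rw [hGd, ← h1, hVt]
    refine ⟨∏ k, (if t k then (1 / 3 : ℝ) * ((Fintype.card (A × B) : ℝ)⁻¹ * c) else 2 / 3),
      Finset.prod_pos fun k _ => ?_, ?_⟩
    · split_ifs <;> positivity
    · rw [← pm_one, hL, app_kp_pm]
      simp only [app_labk_one]
      rw [pm_smul, hGt]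
      congr 1
      push_cast
      refine Finset.prod_congr rfl fun k _ => ?_
      split_ifs <;> push_cast <;> rfl
  have hx₁pd : x₁.PosDef := by
    rw [hx₁]
    exact (ha₁.kronecker hb₁).submatrix e.injective
  -- Eve's corners
  have hZ : ∀ t, ∃ Z : Matrix (Fin n → A × B) (Fin n → A × B) ℂ, Z.IsHermitian ∧
      (fromBlocks (app (L' t) (app Tn x₁)) Z Z (app (L' t) (app Tn x₀))).PosSemidef ∧
      4 * μ * (app (L t) K).trace.re -
        2 * μ ^ 2 * ((app (L t) x₁).trace.re + (app (L t) x₀).trace.re) ≤ Z.trace.re := by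
    intro t
    obtain ⟨r, hr, hr1⟩ := hcd t
    have h1 := (hLcp t).blocks hK
    have h2 : app (L t) Kᴴ = (app (L t) K)ᴴ := by
      obtain ⟨N, W, hW⟩ := hLcp t
      rw [hW, app_kraus, app_kraus, conjTranspose_sum]
      refine Finset.sum_congr rfl fun l _ => ?_
      rw [conjTranspose_mul, conjTranspose_mul, conjTranspose_conjTranspose, Matrix.mul_assoc]
    rw [h2] at h1
    obtain ⟨Z, hZ1, hZ2, hZ3⟩ := hS _ _ _ ((hLcp t).pd hr hr1 hx₁pd) h1
    refine ⟨Z, hZ1, ?_, hZ3 μ⟩
    rw [← i1, ← i1]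
    exact hZ2
  choose Z hZH hZB hZT using hZ
  -- the final corners
  set Z' : (Fin n → Bool) → Matrix (Fin n → A × B) (Fin n → A × B) ℂ :=
    fun s => ∑ t, app (Th s t) (Z t) with hZ'
  have happH : ∀ s t, (app (Th s t) (Z t)).IsHermitian := by
    intro s t
    obtain ⟨N, W, hW⟩ := hThcp s t
    rw [hW, app_kraus]
    unfold Matrix.IsHermitian
    rw [conjTranspose_sum]
    refine Finset.sum_congr rfl fun l _ => ?_
    rw [conjTranspose_mul, conjTranspose_mul, conjTranspose_conjTranspose, (hZH t).eq,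
      Matrix.mul_assoc]
  have hZ'H : ∀ s, (Z' s).IsHermitian := by
    intro s
    unfold Matrix.IsHermitian
    rw [hZ', conjTranspose_sum]
    exact Finset.sum_congr rfl fun t _ => (happH s t).eq
  have hZ'B : ∀ s, (fromBlocks (app (Ga s) (app Tn x₁)) (Z' s) (Z' s)
      (app (Ga s) (app Tn x₀))).PosSemidef := by
    intro s
    have h1 : fromBlocks (app (Ga s) (app Tn x₁)) (Z' s) (Z' s) (app (Ga s) (app Tn x₀)) =
        ∑ t, fromBlocks (app (Th s t) (app (L' t) (app Tn x₁))) (app (Th s t) (Z t))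
          (app (Th s t) (Z t)) (app (Th s t) (app (L' t) (app Tn x₀))) := by
      rw [← i3, ← i3, hZ']
      ext (i | i) (j | j) <;> simp [Matrix.sum_apply, fromBlocks]
    rw [h1]
    exact posSemidef_sum _ fun t _ => (hThcp s t).blocks (hZB t)
  -- products
  set PA : (Fin n → Bool) → Matrix (Fin n → A) (Fin n → A) ℂ → Matrix (Fin n → A) (Fin n → A) ℂ :=
    fun s X => app (kp fun k => (if s k then (1 / 3 : ℂ) • idk A else (2 / 3 : ℂ) • meas 1))
      (app (kp fun _ => TA) X) with hPA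
  set PB : (Fin n → Bool) → Matrix (Fin n → B) (Fin n → B) ℂ → Matrix (Fin n → B) (Fin n → B) ℂ :=
    fun s X => app (kp fun k => (if s k then idk B else meas 1)) (app (kp fun _ => TB) X) with hPB
  have hprod : ∀ s (a : Matrix (Fin n → A) (Fin n → A) ℂ) (b : Matrix (Fin n → B) (Fin n → B) ℂ),
      app (Ga s) (app Tn ((a ⊗ₖ b).submatrix e e)) = (PA s a ⊗ₖ PB s b).submatrix e e := by
    intro s a b
    rw [hTn, hT, he, app_kp_kk (fun _ => TA) (fun _ => TB), hGa]
    simp only [gak_prod]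
    rw [app_kp_kk (fun k => (if s k then (1 / 3 : ℂ) • idk A else (2 / 3 : ℂ) • meas 1))
      (fun k => (if s k then idk B else meas 1))]
  have hPApsd : ∀ s {a : Matrix (Fin n → A) (Fin n → A) ℂ}, a.PosSemidef →
      (PA s a).PosSemidef := by
    intro s a ha
    refine (isCP_kp fun k => ?_).psd ((isCP_kp fun _ => hTA.cp).psd ha)
    show IsCP (if s k then (1 / 3 : ℂ) • idk A else (2 / 3 : ℂ) • meas 1)
    split_ifs
    · have h := (isCP_idk (C := A)).smul (r := 1 / 3) (by norm_num)
      have e : (((1 / 3 : ℝ)) : ℂ) = 1 / 3 := by push_cast; ring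
      rwa [e] at h
    · have h := (isCP_meas (PosSemidef.one (n := A) (R := ℂ))).smul (r := 2 / 3) (by norm_num)
      have e : (((2 / 3 : ℝ)) : ℂ) = 2 / 3 := by push_cast; ring
      rwa [e] at h
  have hPBpsd : ∀ s {b : Matrix (Fin n → B) (Fin n → B) ℂ}, b.PosSemidef →
      (PB s b).PosSemidef := by
    intro s b hb
    refine (isCP_kp fun k => ?_).psd ((isCP_kp fun _ => hTB.cp).psd hb)
    show IsCP (if s k then idk B else meas 1)
    split_ifs
    · exact isCP_idk
    · exact isCP_meas PosSemidef.one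
  -- the end term
  have hsub : ∀ (N : Matrix (Fin n → A × B) (Fin n → A × B) ℂ)
      (Y : Matrix ((Fin n → A) × (Fin n → B)) ((Fin n → A) × (Fin n → B)) ℂ),
      (N * Y.submatrix e e).trace = (N.submatrix e.symm e.symm * Y).trace := by
    intro N Y
    have h1 : Y = (Y.submatrix e e).submatrix e.symm e.symm := by
      rw [submatrix_submatrix, Equiv.self_comp_symm, submatrix_id_id]
    conv_rhs => rw [h1, submatrix_mul_equiv]
    simp only [Matrix.trace, Matrix.diag_apply, submatrix_apply]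
    exact (Equiv.sum_comp e.symm (fun i => (N * Y.submatrix e e) i i)).symm
  have hend : ∀ s, 2 * (M s * Z' s).trace.re ≤
      (M s * app (Ga s) (app Tn ((a₁ ⊗ₖ b₀).submatrix e e))).trace.re +
      (M s * app (Ga s) (app Tn ((a₀ ⊗ₖ b₁).submatrix e e))).trace.re := by
    intro s
    have hB1 := hZ'B s
    rw [hx₁, hx₀, hprod, hprod] at hB1
    have hB2 : (fromBlocks (PA s a₁ ⊗ₖ PB s b₁) ((Z' s).submatrix e.symm e.symm)
        ((Z' s).submatrix e.symm e.symm) (PA s a₀ ⊗ₖ PB s b₀)).PosSemidef := by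
      have h2 := hB1.submatrix (Sum.map e.symm e.symm)
      have h3 : (fromBlocks ((PA s a₁ ⊗ₖ PB s b₁).submatrix e e) (Z' s) (Z' s)
          ((PA s a₀ ⊗ₖ PB s b₀).submatrix e e)).submatrix (Sum.map e.symm e.symm)
          (Sum.map e.symm e.symm) = fromBlocks (PA s a₁ ⊗ₖ PB s b₁)
          ((Z' s).submatrix e.symm e.symm) ((Z' s).submatrix e.symm e.symm)
          (PA s a₀ ⊗ₖ PB s b₀) := by
        ext (i | i) (j | j) <;> simp [fromBlocks]
      rwa [h3] at h2
    have h4 := Swap.core_lin (hPApsd s ha₀) (hPApsd s ha₁.posSemidef) (hPBpsd s hb₀)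
      (hPBpsd s hb₁.posSemidef) ((hZ'H s).submatrix e.symm) hB2
      (M := (M s).submatrix e.symm e.symm) ((hMpsd s).submatrix e.symm)
    rw [hprod, hprod, hsub, hsub]
    have h5 : (M s * Z' s).trace =
        ((M s).submatrix e.symm e.symm * (Z' s).submatrix e.symm e.symm).trace := by
      rw [← hsub, submatrix_submatrix, Equiv.symm_comp_self, submatrix_id_id]
    rw [h5]
    exact h4
  -- the sums
  have hsumW : ∀ X, ∑ t, (app (L t) X).trace = (R * X).trace := by
    intro X
    rw [← i2, Matrix.sum_mul, trace_sum]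
    refine Finset.sum_congr rfl fun t _ => ?_
    rw [← trace_mul_app, Matrix.one_mul]
  have hsumW' : ∀ X, ∑ t, (app (L t) X).trace.re = (R * X).trace.re := by
    intro X
    rw [← hsumW X, Complex.re_sum]
  have hsumG : ∀ X, ∑ s, (M s * app (Ga s) (app Tn X)).trace.re = (R * X).trace.re := by
    intro X
    rw [← Complex.re_sum]
    congr 1
    simp only [trace_mul_app (Ga _)]
    rw [← trace_sum, ← Matrix.sum_mul, i5, trace_mul_app, i6]
  have hsumZ : ∑ s, (M s * Z' s).trace.re = ∑ t, (Z t).trace.re := by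
    rw [← Complex.re_sum, ← Complex.re_sum]
    congr 1
    calc ∑ s, (M s * Z' s).trace = ∑ s, ∑ t, (dual (Th s t) (M s) * Z t).trace := by
          refine Finset.sum_congr rfl fun s _ => ?_
          rw [hZ', Matrix.mul_sum, trace_sum]
          exact Finset.sum_congr rfl fun t _ => trace_mul_app _ _ _
      _ = ∑ t, ∑ s, (dual (Th s t) (M s) * Z t).trace := Finset.sum_comm
      _ = ∑ t, (Z t).trace := by
          refine Finset.sum_congr rfl fun t _ => ?_
          rw [← trace_sum, ← Matrix.sum_mul, i4, Matrix.one_mul]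
  have h1 := Finset.sum_le_sum (s := Finset.univ) fun t _ => hZT t
  rw [← hsumZ, Finset.sum_sub_distrib, ← Finset.mul_sum, ← Finset.mul_sum,
    Finset.sum_add_distrib, hsumW', hsumW', hsumW'] at h1
  have h2 := Finset.sum_le_sum (s := Finset.univ) fun s _ => hend s
  rw [Finset.sum_add_distrib, ← Finset.mul_sum, hsumG, hsumG] at h2
  linarith

end Vale.Agent.P372.H54
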