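import Vale.Agent.P372.H54.Chain
import Vale.Agent.P372.H740.Scale
import Vale.Agent.P372.H507.Socket
import Vale.Agent.P372.H897.SN
import Vale.Agent.P372.FULL.Link

/-! The final assembly: an entangled state without distillable key. -/

open Matrix Kronecker
open scoped ComplexOrder MatrixOrder

set_option linter.unusedSectionVars false

namespace Vale.Agent.P372.H54

section Conv

variable {a b : Type} [Fintype a] [DecidableEq a] [Fintype b] [DecidableEq b]

/-- The kernel in the order of this folder. -/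
def flipK (t : H897.Ker a) : Ker a a := fun j j' i i' => t i i' j j'

theorem app_flipK (t : H897.Ker a) (X : Matrix a a ℂ) : app (flipK t) X = H897.ap t X := by
  ext i j
  unfold app flipK H897.ap
  exact Finset.sum_congr rfl fun p _ => Finset.sum_congr rfl fun q _ => mul_comm _ _

theorem dual_flipK {t : H897.Ker a} (ht : H897.SD t) (X : Matrix a a ℂ) :
    dual (flipK t) X = H897.ap t X := by
  ext i' i
  unfold dual flipK H897.ap
  rw [Finset.sum_comm]
  refine Finset.sum_congr rfl fun p _ => Finset.sum_congr rfl fun q _ => ?_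
  rw [ht]

theorem isCP_flipK {t : H897.Ker a} (h : (H897.Choi t).PosSemidef) : IsCP (flipK t) := by
  obtain ⟨B, hB⟩ := CStarAlgebra.nonneg_iff_eq_star_mul_self.mp h.nonneg
  have h1 : flipK t = kraus fun l : a × a => (fun j i => star (B l (i, j)) : Matrix a a ℂ) := by
    funext j j' i i'
    have h2 : H897.Choi t (i, j) (i', j') = (star B * B) (i, j) (i', j') := by rw [← hB]
    simp only [H897.Choi, Matrix.star_eq_conjTranspose, Matrix.mul_apply,
      conjTranspose_apply] at h2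
    simp only [flipK, kraus, star_star]
    exact h2
  rw [h1]
  exact isCP_kraus _

theorem kk_flipK (t : H897.Ker a) (t' : H897.Ker b) :
    kk (flipK t) (flipK t') = flipK (H897.kt t t') := rfl

theorem kp_flipK {n : ℕ} (t : H897.Ker a) :
    kp (fun _ : Fin n => flipK t) = flipK (H897.pk (ι := Fin n) t) := rfl

end Conv

open H897 (V tk kt pk kn SD_tk UN_tk SF_tk)

variable {m : ℕ}

theorem corner_tk (m n : ℕ) :
    Corner (app (kp fun _ : Fin n => kk (flipK (tk m)) (flipK (tk m)))) := by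
  intro θ θ' W hθ hb
  set e := eN (V m) (V m) n with he
  have hS : ∀ X : Matrix ((Fin n → V m) × (Fin n → V m)) ((Fin n → V m) × (Fin n → V m)) ℂ,
      app (kp fun _ : Fin n => kk (flipK (tk m)) (flipK (tk m))) (X.submatrix e e) =
        (H897.apl (kn m n) X).submatrix e e := by
    intro X
    rw [kp_kk (fun _ => flipK (tk m)) (fun _ => flipK (tk m)), he, app_reK, kp_flipK, kk_flipK,
      app_flipK]
    rfl
  have hre : ∀ X : Matrix (Fin n → V m × V m) (Fin n → V m × V m) ℂ,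
      (X.submatrix e.symm e.symm).submatrix e e = X := by
    intro X
    rw [submatrix_submatrix, Equiv.symm_comp_self, submatrix_id_id]
  have hb' : (fromBlocks (θ.submatrix e.symm e.symm) (W.submatrix e.symm e.symm)
      (W.submatrix e.symm e.symm)ᴴ (θ'.submatrix e.symm e.symm)).PosSemidef := by
    have h1 := hb.submatrix (Sum.map e.symm e.symm)
    have h2 : (fromBlocks θ W Wᴴ θ').submatrix (Sum.map e.symm e.symm) (Sum.map e.symm e.symm) =
        fromBlocks (θ.submatrix e.symm e.symm) (W.submatrix e.symm e.symm)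
          (W.submatrix e.symm e.symm)ᴴ (θ'.submatrix e.symm e.symm) := by
      ext (i | i) (j | j) <;> simp [fromBlocks]
    rwa [h2] at h1
  obtain ⟨Z, hZ1, hZ2, hZ3⟩ := H405.start (H897.isFlip_kn m n)
    (hθ.submatrix e.symm.injective) hb'
  have htr : ∀ X : Matrix (Fin n → V m × V m) (Fin n → V m × V m) ℂ,
      (X.submatrix e.symm e.symm).trace = X.trace := by
    intro X
    simp only [Matrix.trace, Matrix.diag_apply, submatrix_apply]
    exact Equiv.sum_comp e.symm (fun i => X i i)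
  refine ⟨Z.submatrix e e, hZ1.submatrix e, ?_, fun r => ?_⟩
  · have h1 := hZ2.submatrix (Sum.map e e)
    have h2 : (fromBlocks (H897.apl (kn m n) (θ.submatrix e.symm e.symm)) Z Z
        (H897.apl (kn m n) (θ'.submatrix e.symm e.symm))).submatrix (Sum.map e e) (Sum.map e e) =
        fromBlocks (app (kp fun _ : Fin n => kk (flipK (tk m)) (flipK (tk m))) θ)
          (Z.submatrix e e) (Z.submatrix e e)
          (app (kp fun _ : Fin n => kk (flipK (tk m)) (flipK (tk m))) θ') := by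
      conv_rhs => rw [← hre θ, ← hre θ', hS, hS]
      ext (i | i) (j | j) <;> simp [fromBlocks]
    rwa [h2] at h1
  · have h1 := hZ3 r
    rw [htr, htr, htr] at h1
    have h2 : (Z.submatrix e e).trace = Z.trace := by
      simp only [Matrix.trace, Matrix.diag_apply, submatrix_apply]
      exact Equiv.sum_comp e (fun i => Z i i)
    rw [h2]
    exact h1

theorem cornerLin (m : ℕ) {Rh : Matrix (V m × V m) (V m × V m) ℂ} (h1 : Rh.PosSemidef)
    (h2 : ((2 : ℂ) • 1 - Rh).PosSemidef) (h3 : Rh ≠ 0) (n : ℕ) :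
    H740.CornerLin (tpow n ((2 / 3 : ℂ) • 1 + (1 / 3 : ℂ) • H897.ap (kt (tk m) (tk m)) Rh)) := by
  intro a₀ a₁ b₀ b₁ C μ ha₀ ha₁ hb₀ hb₁ hC
  set e := eN (V m) (V m) n with he
  have hcp : IsCP (flipK (tk m)) := isCP_flipK (SF_tk m).choi
  have hone : app (flipK (tk m)) 1 = 1 := by
    rw [app_flipK]
    exact H897.UN.one UN_tk
  have hdone : dual (flipK (tk m)) 1 = 1 := by
    rw [dual_flipK SD_tk]
    exact H897.UN.one UN_tk
  have hone2 : app (kk (flipK (tk m)) (flipK (tk m))) 1 = 1 := by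
    rw [kk_flipK, app_flipK]
    exact H897.UN.one (UN_tk.kt UN_tk)
  have hdone2 : dual (kk (flipK (tk m)) (flipK (tk m))) 1 = 1 := by
    rw [kk_flipK, dual_flipK (SD_tk.kt SD_tk)]
    exact H897.UN.one (UN_tk.kt UN_tk)
  have hdV : dual (kk (flipK (tk m)) (flipK (tk m))) Rh = H897.ap (kt (tk m) (tk m)) Rh := by
    rw [kk_flipK, dual_flipK (SD_tk.kt SD_tk)]
  have hG : (dual (kk (flipK (tk m)) (flipK (tk m))) Rh).PosSemidef := by
    rw [hdV]
    exact H897.ap_psd ((SF_tk m).kt (SF_tk m)).choi h1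
  obtain ⟨c, hc, hct⟩ : ∃ c : ℝ, 0 < c ∧ Rh.trace = (c : ℂ) := by
    have h4 := h1.trace_nonneg
    have h5 : Rh.trace = (Rh.trace.re : ℂ) := by
      refine Complex.ext rfl ?_
      rw [Complex.ofReal_im]
      exact (Complex.le_def.mp h4).2.symm
    have h6 : Rh.trace ≠ 0 := fun h => h3 (h1.trace_eq_zero_iff.mp h)
    refine ⟨Rh.trace.re, lt_of_le_of_ne (Complex.le_def.mp h4).1 (fun h => h6 ?_), h5⟩
    rw [h5]
    have h7 : Rh.trace.re = 0 := h.symm
    rw [h7, Complex.ofReal_zero]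
  have hK : (fromBlocks ((a₀ ⊗ₖ b₀).submatrix (eN (V m) (V m) n) (eN (V m) (V m) n))
      (C.submatrix e e) (C.submatrix e e)ᴴ
      ((a₁ ⊗ₖ b₁).submatrix (eN (V m) (V m) n) (eN (V m) (V m) n))).PosSemidef := by
    have h4 := hC.submatrix (Sum.map e e)
    have h5 : (fromBlocks (a₀ ⊗ₖ b₀) C Cᴴ (a₁ ⊗ₖ b₁)).submatrix (Sum.map e e) (Sum.map e e) =
        fromBlocks ((a₀ ⊗ₖ b₀).submatrix e e) (C.submatrix e e) (C.submatrix e e)ᴴ
          ((a₁ ⊗ₖ b₁).submatrix e e) := by
      ext (i | i) (j | j) <;> simp [fromBlocks]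
    rwa [h5] at h4
  have hmain := chain_pd (TA := flipK (tk m)) (TB := flipK (tk m)) ⟨hcp, hone, hdone⟩
    ⟨hcp, hone, hdone⟩ hone2 hdone2 h1 h2 hG hc hct n (corner_tk m n) ha₁.posSemidef
    hb₁.posSemidef ha₀ hb₀ hK μ
  have hR : (pm fun _ : Fin n => (2 / 3 : ℂ) • (1 : Matrix (V m × V m) (V m × V m) ℂ) +
      (1 / 3 : ℂ) • dual (kk (flipK (tk m)) (flipK (tk m))) Rh) =
      (tpow n ((2 / 3 : ℂ) • 1 + (1 / 3 : ℂ) • H897.ap (kt (tk m) (tk m)) Rh)).submatrix e e := by
    rw [hdV]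
    rfl
  have htr : ∀ X Y : Matrix ((Fin n → V m) × (Fin n → V m)) ((Fin n → V m) × (Fin n → V m)) ℂ,
      (X.submatrix e e * Y.submatrix e e).trace = (X * Y).trace := by
    intro X Y
    rw [submatrix_mul_equiv]
    simp only [Matrix.trace, Matrix.diag_apply, submatrix_apply]
    exact Equiv.sum_comp e (fun i => (X * Y) i i)
  rw [hR, htr, htr, htr, htr, htr] at hmain
  linarith

/-- **The inequality for all numbers of copies and all local filters.** -/
theorem noTest (m : ℕ) {Rh : Matrix (V m × V m) (V m × V m) ℂ} (h1 : Rh.PosSemidef)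
    (h2 : ((2 : ℂ) • 1 - Rh).PosSemidef) (h3 : Rh ≠ 0) :
    H740.NoTest ((2 / 3 : ℂ) • 1 + (1 / 3 : ℂ) • H897.ap (kt (tk m) (tk m)) Rh) := by
  refine H740.noTest_of_corner (fun n => ?_) fun n => cornerLin m h1 h2 h3 n
  have hR : ((2 / 3 : ℂ) • (1 : Matrix (V m × V m) (V m × V m) ℂ) +
      (1 / 3 : ℂ) • H897.ap (kt (tk m) (tk m)) Rh).PosSemidef := by
    refine (PosSemidef.one.smul ?_).add
      ((H897.ap_psd ((SF_tk m).kt (SF_tk m)).choi h1).smul ?_)
    · have : (0 : ℝ) ≤ 2 / 3 := by norm_num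
      have h : (((2 / 3 : ℝ)) : ℂ) = 2 / 3 := by push_cast; ring
      rw [← h]
      exact_mod_cast this
    · have : (0 : ℝ) ≤ 1 / 3 := by norm_num
      have h : (((1 / 3 : ℝ)) : ℂ) = 1 / 3 := by push_cast; ring
      rw [← h]
      exact_mod_cast this
  have h4 := (pm_psd (n := n) (fun _ => hR)).submatrix (eN (V m) (V m) n).symm
  exact h4

/-- **There is an entangled state without distillable key.** -/
theorem main : ∃ (a b : ℕ) (ρ : Matrix (Fin a × Fin b) (Fin a × Fin b) ℂ), ρ.PosSemidef ∧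
    ρ.trace = 1 ∧ ¬ IsSep ρ ∧ ∀ (E : Type) [Fintype E] [DecidableEq E]
      (Ψ : Matrix (Fin a × Fin b) E ℂ), Ψ * Ψᴴ = ρ → distillableKey Ψ = 0 := by
  obtain ⟨m, Rh, h1, h2, h3⟩ := H507.socketE'
  rw [H897.fm_tk] at h3
  have h4 : Rh ≠ 0 := by
    rintro rfl
    apply h3
    have h5 : H897.ap (kt (tk m) (tk m)) 0 = 0 := by
      ext i j
      simp [H897.ap]
    rw [h5, smul_zero, add_zero]
    refine ⟨1, fun _ => (2 / 3 : ℂ) • 1, fun _ => 1, fun _ => ?_, fun _ => PosSemidef.one, ?_⟩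
    · refine PosSemidef.one.smul ?_
      have : (0 : ℝ) ≤ 2 / 3 := by norm_num
      have h : (((2 / 3 : ℝ)) : ℂ) = 2 / 3 := by push_cast; ring
      rw [← h]
      exact_mod_cast this
    · rw [Fin.sum_univ_one, smul_kronecker, one_kronecker_one]
  have hR : ((2 / 3 : ℂ) • (1 : Matrix (V m × V m) (V m × V m) ℂ) +
      (1 / 3 : ℂ) • H897.ap (kt (tk m) (tk m)) Rh).PosSemidef := by
    refine (PosSemidef.one.smul ?_).add
      ((H897.ap_psd ((SF_tk m).kt (SF_tk m)).choi h1).smul ?_)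
    · have : (0 : ℝ) ≤ 2 / 3 := by norm_num
      have h : (((2 / 3 : ℝ)) : ℂ) = 2 / 3 := by push_cast; ring
      rw [← h]
      exact_mod_cast this
    · have : (0 : ℝ) ≤ 1 / 3 := by norm_num
      have h : (((1 / 3 : ℝ)) : ℂ) = 1 / 3 := by push_cast; ring
      rw [← h]
      exact_mod_cast this
  exact FULL.link _ hR h3 (noTest m h1 h2 h4)

end Vale.Agent.P372.H54
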