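import Vale.Agent.P372.MathlibUsed

/-! Kernels of linear maps between matrix algebras and their tensor powers. -/

open Matrix Kronecker
open scoped ComplexOrder MatrixOrder

set_option linter.unusedSectionVars false

namespace Vale.Agent.P372.H54

/-- The kernel of a linear map `Matrix I I ℂ → Matrix J J ℂ`. -/
abbrev Ker (J I : Type) := J → J → I → I → ℂ

section Basic

variable {H I J L : Type} [Fintype H] [Fintype I] [Fintype J] [Fintype L]

/-- The linear map of a kernel. -/
def app (κ : Ker J I) (X : Matrix I I ℂ) : Matrix J J ℂ :=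
  fun j j' => ∑ i, ∑ i', κ j j' i i' * X i i'

/-- The composition of two kernels. -/
def comp (κ₂ : Ker J I) (κ₁ : Ker I H) : Ker J H :=
  fun j j' h h' => ∑ i, ∑ i', κ₂ j j' i i' * κ₁ i i' h h'

/-- The kernel with the Kraus operators `V l`. -/
def kraus (V : L → Matrix J I ℂ) : Ker J I := fun j j' i i' => ∑ l, V l j i * star (V l j' i')

/-- The dual map applied to a matrix. -/
def dual (κ : Ker J I) (M : Matrix J J ℂ) : Matrix I I ℂ :=
  fun i' i => ∑ j, ∑ j', M j' j * κ j j' i i'

theorem app_comp (κ₂ : Ker J I) (κ₁ : Ker I H) (X : Matrix H H ℂ) :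
    app (comp κ₂ κ₁) X = app κ₂ (app κ₁ X) := by
  ext j j'
  simp only [app, comp, Finset.mul_sum, Finset.sum_mul]
  calc (∑ h, ∑ h', ∑ i, ∑ i', κ₂ j j' i i' * κ₁ i i' h h' * X h h')
      = ∑ h, ∑ i, ∑ h', ∑ i', κ₂ j j' i i' * κ₁ i i' h h' * X h h' :=
        Finset.sum_congr rfl fun h _ => Finset.sum_comm
    _ = ∑ h, ∑ i, ∑ i', ∑ h', κ₂ j j' i i' * κ₁ i i' h h' * X h h' :=
        Finset.sum_congr rfl fun h _ => Finset.sum_congr rfl fun i _ => Finset.sum_comm
    _ = ∑ i, ∑ h, ∑ i', ∑ h', κ₂ j j' i i' * κ₁ i i' h h' * X h h' := Finset.sum_comm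
    _ = ∑ i, ∑ i', ∑ h, ∑ h', κ₂ j j' i i' * κ₁ i i' h h' * X h h' :=
        Finset.sum_congr rfl fun i _ => Finset.sum_comm
    _ = _ := by
        refine Finset.sum_congr rfl fun i _ => Finset.sum_congr rfl fun i' _ =>
          Finset.sum_congr rfl fun h _ => Finset.sum_congr rfl fun h' _ => ?_
        ring

theorem trace_mul_app (κ : Ker J I) (M : Matrix J J ℂ) (X : Matrix I I ℂ) :
    (M * app κ X).trace = (dual κ M * X).trace := by
  simp only [Matrix.trace, Matrix.diag_apply, Matrix.mul_apply, app, dual, Finset.mul_sum,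
    Finset.sum_mul]
  calc (∑ j', ∑ j, ∑ i, ∑ i', M j' j * (κ j j' i i' * X i i'))
      = ∑ j', ∑ i, ∑ j, ∑ i', M j' j * (κ j j' i i' * X i i') :=
        Finset.sum_congr rfl fun _ _ => Finset.sum_comm
    _ = ∑ j', ∑ i, ∑ i', ∑ j, M j' j * (κ j j' i i' * X i i') :=
        Finset.sum_congr rfl fun _ _ => Finset.sum_congr rfl fun _ _ => Finset.sum_comm
    _ = ∑ i, ∑ j', ∑ i', ∑ j, M j' j * (κ j j' i i' * X i i') := Finset.sum_comm
    _ = ∑ i, ∑ i', ∑ j', ∑ j, M j' j * (κ j j' i i' * X i i') :=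
        Finset.sum_congr rfl fun _ _ => Finset.sum_comm
    _ = ∑ i, ∑ i', ∑ j, ∑ j', M j' j * (κ j j' i i' * X i i') :=
        Finset.sum_congr rfl fun _ _ => Finset.sum_congr rfl fun _ _ => Finset.sum_comm
    _ = ∑ i', ∑ i, ∑ j, ∑ j', M j' j * (κ j j' i i' * X i i') := Finset.sum_comm
    _ = _ := by
        refine Finset.sum_congr rfl fun i _ => Finset.sum_congr rfl fun i' _ =>
          Finset.sum_congr rfl fun h _ => Finset.sum_congr rfl fun h' _ => ?_
        ring

theorem app_add (κ : Ker J I) (X Y : Matrix I I ℂ) : app κ (X + Y) = app κ X + app κ Y := by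
  ext j j'
  simp only [app, Matrix.add_apply, mul_add, Finset.sum_add_distrib]

theorem app_smul (κ : Ker J I) (c : ℂ) (X : Matrix I I ℂ) : app κ (c • X) = c • app κ X := by
  ext j j'
  simp only [app, Matrix.smul_apply, smul_eq_mul, Finset.mul_sum]
  refine Finset.sum_congr rfl fun i _ => Finset.sum_congr rfl fun i' _ => ?_
  ring

theorem app_kraus (V : L → Matrix J I ℂ) (X : Matrix I I ℂ) :
    app (kraus V) X = ∑ l, V l * X * (V l)ᴴ := by
  ext j j'
  simp only [app, kraus, Matrix.sum_apply, Matrix.mul_apply, conjTranspose_apply, Finset.sum_mul]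
  calc (∑ i, ∑ i', ∑ l, V l j i * star (V l j' i') * X i i')
      = ∑ i, ∑ l, ∑ i', V l j i * star (V l j' i') * X i i' :=
        Finset.sum_congr rfl fun _ _ => Finset.sum_comm
    _ = ∑ l, ∑ i, ∑ i', V l j i * star (V l j' i') * X i i' := Finset.sum_comm
    _ = ∑ l, ∑ i', ∑ i, V l j i * star (V l j' i') * X i i' :=
        Finset.sum_congr rfl fun _ _ => Finset.sum_comm
    _ = _ := by
        refine Finset.sum_congr rfl fun l _ => Finset.sum_congr rfl fun i' _ =>
          Finset.sum_congr rfl fun i _ => ?_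
        ring

/-- A kernel that has Kraus operators. -/
def IsCP (κ : Ker J I) : Prop := ∃ (N : ℕ) (V : Fin N → Matrix J I ℂ), κ = kraus V

theorem isCP_kraus (V : L → Matrix J I ℂ) : IsCP (kraus V) := by
  classical
  refine ⟨Fintype.card L, fun k => V ((Fintype.equivFin L).symm k), ?_⟩
  funext j j' i i'
  exact (Equiv.sum_comp (Fintype.equivFin L).symm (fun l => V l j i * star (V l j' i'))).symm

theorem IsCP.add {κ κ' : Ker J I} (h : IsCP κ) (h' : IsCP κ') : IsCP (κ + κ') := by
  obtain ⟨N, V, rfl⟩ := h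
  obtain ⟨N', V', rfl⟩ := h'
  have h1 : kraus V + kraus V' = kraus (Sum.elim V V') := by
    funext j j' i i'
    simp only [Pi.add_apply, kraus, Fintype.sum_sum_type, Sum.elim_inl, Sum.elim_inr]
  rw [h1]
  exact isCP_kraus _

theorem isCP_zero : IsCP (0 : Ker J I) :=
  ⟨0, fun k => k.elim0, by funext j j' i i'; simp [kraus]⟩

/-- The map of a completely positive kernel on corners. -/
theorem IsCP.blocks {κ : Ker J I} (h : IsCP κ) {X Y Z W : Matrix I I ℂ}
    (hb : (fromBlocks X Z W Y).PosSemidef) :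
    (fromBlocks (app κ X) (app κ Z) (app κ W) (app κ Y)).PosSemidef := by
  obtain ⟨N, V, rfl⟩ := h
  have h1 : fromBlocks (app (kraus V) X) (app (kraus V) Z) (app (kraus V) W) (app (kraus V) Y) =
      ∑ l, fromBlocks (V l) 0 0 (V l) * fromBlocks X Z W Y * (fromBlocks (V l) 0 0 (V l))ᴴ := by
    simp only [app_kraus, fromBlocks_conjTranspose, fromBlocks_multiply, conjTranspose_zero,
      Matrix.zero_mul, Matrix.mul_zero, add_zero, zero_add]
    ext (i | i) (j | j) <;> simp [Matrix.sum_apply, fromBlocks]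
  rw [h1]
  exact posSemidef_sum _ fun l _ => hb.mul_mul_conjTranspose_same _

theorem IsCP.psd {κ : Ker J I} (h : IsCP κ) {X : Matrix I I ℂ} (hX : X.PosSemidef) :
    (app κ X).PosSemidef := by
  obtain ⟨N, V, rfl⟩ := h
  rw [app_kraus]
  exact posSemidef_sum _ fun l _ => hX.mul_mul_conjTranspose_same _

end Basic

section Power

variable {H I J L : Type} [Fintype H] [Fintype I] [Fintype J] [Fintype L] {n : ℕ}

/-- The tensor product of kernels, one for every site. -/
def kp (κ : Fin n → Ker J I) : Ker (Fin n → J) (Fin n → I) :=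
  fun f f' g g' => ∏ k, κ k (f k) (f' k) (g k) (g' k)

/-- The tensor product of matrices, one for every site. -/
def pm (M : Fin n → Matrix I I ℂ) : Matrix (Fin n → I) (Fin n → I) ℂ :=
  fun f g => ∏ k, M k (f k) (g k)

theorem sum_prod_pi {ι : Type} [Fintype ι] (u : Fin n → ι → ℂ) :
    ∑ f : Fin n → ι, ∏ k, u k (f k) = ∏ k, ∑ i, u k i := by
  classical
  rw [Finset.prod_univ_sum, Fintype.piFinset_univ]

theorem sum_prod_pi2 {ι ι' : Type} [Fintype ι] [Fintype ι'] (u : Fin n → ι → ι' → ℂ) :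
    ∑ f : Fin n → ι, ∑ g : Fin n → ι', ∏ k, u k (f k) (g k) = ∏ k, ∑ i, ∑ i', u k i i' := by
  rw [← sum_prod_pi (fun k i => ∑ i', u k i i')]
  refine Finset.sum_congr rfl fun f _ => ?_
  rw [← sum_prod_pi (fun k i' => u k (f k) i')]

theorem kp_comp (κ₂ : Fin n → Ker J I) (κ₁ : Fin n → Ker I H) :
    comp (kp κ₂) (kp κ₁) = kp fun k => comp (κ₂ k) (κ₁ k) := by
  funext f f' g g'
  simp only [comp, kp, ← Finset.prod_mul_distrib]
  exact sum_prod_pi2 (fun k i i' => κ₂ k (f k) (f' k) i i' * κ₁ k i i' (g k) (g' k))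

theorem kp_dual (κ : Fin n → Ker J I) (M : Fin n → Matrix J J ℂ) :
    dual (kp κ) (pm M) = pm fun k => dual (κ k) (M k) := by
  funext g' g
  simp only [dual, kp, pm, ← Finset.prod_mul_distrib]
  exact sum_prod_pi2 (fun k j j' => M k j' j * κ k j j' (g k) (g' k))

theorem kp_kraus (V : Fin n → L → Matrix J I ℂ) :
    kp (fun k => kraus (V k)) =
      kraus fun (l : Fin n → L) => (fun f g => ∏ k, V k (l k) (f k) (g k) : Matrix _ _ ℂ) := by
  funext f f' g g'
  simp only [kp, kraus, star_prod, ← Finset.prod_mul_distrib]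
  exact (sum_prod_pi (fun k l => V k l (f k) (g k) * star (V k l (f' k) (g' k)))).symm

theorem isCP_kp {κ : Fin n → Ker J I} (h : ∀ k, IsCP (κ k)) : IsCP (kp κ) := by
  choose N V hV using h
  -- make the number of Kraus operators independent of the site
  have h1 : ∀ k, κ k = kraus fun l : Σ k', Fin (N k') =>
      if h : l.1 = k then V k (h ▸ l.2) else 0 := by
    intro k
    conv_lhs => rw [hV k]
    funext j j' i i'
    simp only [kraus]
    rw [Fintype.sum_sigma, Finset.sum_eq_single k]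
    · simp
    · intro k' _ hk'
      refine Finset.sum_eq_zero fun l _ => ?_
      simp [hk']
    · intro h
      exact absurd (Finset.mem_univ _) h
  have h2 : κ = fun k => kraus fun l : Σ k', Fin (N k') =>
      if h : l.1 = k then V k (h ▸ l.2) else 0 := funext h1
  rw [h2, kp_kraus]
  exact isCP_kraus _

theorem pm_one [DecidableEq I] : pm (fun _ : Fin n => (1 : Matrix I I ℂ)) = 1 := by
  ext f g
  rw [pm]
  by_cases h : f = g
  · subst h
    simp
  · rw [Matrix.one_apply_ne h]
    obtain ⟨k, hk⟩ : ∃ k, f k ≠ g k := by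
      by_contra hc
      push Not at hc
      exact h (funext hc)
    exact Finset.prod_eq_zero (Finset.mem_univ k) (Matrix.one_apply_ne hk)

/-- The sum over all labels of a tensor product. -/
theorem sum_pm {ι : Type} [Fintype ι] (M : Fin n → ι → Matrix I I ℂ) :
    ∑ t : Fin n → ι, pm (fun k => M k (t k)) = pm fun k => ∑ i, M k i := by
  ext f g
  simp only [Matrix.sum_apply, pm]
  exact sum_prod_pi (fun k i => M k i (f k) (g k))

theorem sum_kp {ι : Type} [Fintype ι] (κ : Fin n → ι → Ker J I) :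
    ∑ t : Fin n → ι, kp (fun k => κ k (t k)) = kp fun k => ∑ i, κ k i := by
  funext f f' g g'
  simp only [Finset.sum_apply, kp]
  exact sum_prod_pi (fun k i => κ k i (f k) (f' k) (g k) (g' k))

theorem app_sum {ι : Type} (s : Finset ι) (κ : ι → Ker J I) (X : Matrix I I ℂ) :
    app (∑ t ∈ s, κ t) X = ∑ t ∈ s, app (κ t) X := by
  ext j j'
  simp only [app, Finset.sum_apply, Matrix.sum_apply, Finset.sum_mul]
  rw [Finset.sum_comm (s := s)]
  refine (Finset.sum_congr rfl fun i _ => ?_)
  rw [Finset.sum_comm (s := s)]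

theorem dual_add_mul {κ κ' : Ker J I} {M : Matrix J J ℂ} :
    dual (κ + κ') M = dual κ M + dual κ' M := by
  ext i' i
  simp only [dual, Pi.add_apply, mul_add, Finset.sum_add_distrib, Matrix.add_apply]

theorem pm_psd {M : Fin n → Matrix I I ℂ} (h : ∀ k, (M k).PosSemidef) : (pm M).PosSemidef := by
  classical
  have h1 : ∀ k, ∃ B : Matrix I I ℂ, M k = Bᴴ * B := fun k => by
    obtain ⟨B, hB⟩ := CStarAlgebra.nonneg_iff_eq_star_mul_self.mp (h k).nonneg
    exact ⟨B, hB⟩
  choose B hB using h1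
  have h2 : pm M = (pm B)ᴴ * pm B := by
    ext f g
    simp only [pm, Matrix.mul_apply, conjTranspose_apply, star_prod, ← Finset.prod_mul_distrib]
    rw [sum_prod_pi (fun k i => star (B k i (f k)) * B k i (g k))]
    refine Finset.prod_congr rfl fun k _ => ?_
    rw [hB k]
    simp [Matrix.mul_apply]
  rw [h2]
  exact posSemidef_conjTranspose_mul_self _

end Power

end Vale.Agent.P372.H54
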