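import Vale.Agent.P372.H54.Ker

/-! The maps at one site: labels, weights and the three identities. -/

open Matrix Kronecker
open scoped ComplexOrder MatrixOrder

set_option linter.unusedSectionVars false

namespace Vale.Agent.P372.H54

variable {C : Type} [Fintype C] [DecidableEq C]

/-- The identity. -/
def idk (C : Type) [DecidableEq C] : Ker C C := fun j j' i i' => if j = i ∧ j' = i' then 1 else 0

/-- `X ↦ tr (V X) 1 / d`. -/
noncomputable def meas (V : Matrix C C ℂ) : Ker C C :=
  fun j j' i i' => (if j = j' then ((Fintype.card C : ℂ))⁻¹ else 0) * V i' i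

theorem app_idk (X : Matrix C C ℂ) : app (idk C) X = X := by
  ext j j'
  simp only [app, idk, ite_mul, one_mul, zero_mul]
  rw [Finset.sum_eq_single j, Finset.sum_eq_single j']
  · simp
  · intro i' _ h
    exact if_neg fun h' => h h'.2.symm
  · intro h
    exact absurd (Finset.mem_univ _) h
  · intro i _ h
    exact Finset.sum_eq_zero fun i' _ => if_neg fun h' => h h'.1.symm
  · intro h
    exact absurd (Finset.mem_univ _) h

theorem comp_idk {J : Type} (κ : Ker J C) : comp κ (idk C) = κ := by
  funext j j' h h'
  simp only [comp, idk, mul_ite, mul_one, mul_zero]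
  rw [Finset.sum_eq_single h, Finset.sum_eq_single h']
  · simp
  · intro i' _ hi
    exact if_neg fun h'' => hi h''.2
  · intro hn
    exact absurd (Finset.mem_univ _) hn
  · intro i _ hi
    exact Finset.sum_eq_zero fun i' _ => if_neg fun h'' => hi h''.1
  · intro hn
    exact absurd (Finset.mem_univ _) hn

theorem idk_comp {J : Type} (κ : Ker C J) : comp (idk C) κ = κ := by
  funext j j' h h'
  simp only [comp, idk, ite_mul, one_mul, zero_mul]
  rw [Finset.sum_eq_single j, Finset.sum_eq_single j']
  · simp
  · intro i' _ hi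
    exact if_neg fun h'' => hi h''.2.symm
  · intro hn
    exact absurd (Finset.mem_univ _) hn
  · intro i _ hi
    exact Finset.sum_eq_zero fun i' _ => if_neg fun h'' => hi h''.1.symm
  · intro hn
    exact absurd (Finset.mem_univ _) hn

theorem dual_idk (M : Matrix C C ℂ) : dual (idk C) M = M := by
  ext i' i
  simp only [dual, idk, mul_ite, mul_one, mul_zero]
  rw [Finset.sum_eq_single i, Finset.sum_eq_single i']
  · simp
  · intro j' _ hi
    exact if_neg fun h'' => hi h''.2
  · intro hn
    exact absurd (Finset.mem_univ _) hn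
  · intro j _ hi
    exact Finset.sum_eq_zero fun i' _ => if_neg fun h'' => hi h''.1
  · intro hn
    exact absurd (Finset.mem_univ _) hn

theorem dual_meas (V M : Matrix C C ℂ) :
    dual (meas V) M = ((Fintype.card C : ℂ)⁻¹ * M.trace) • V := by
  ext i' i
  simp only [dual, meas, Matrix.smul_apply, smul_eq_mul, Matrix.trace, Matrix.diag_apply,
    Finset.mul_sum, Finset.sum_mul]
  refine Finset.sum_congr rfl fun j _ => ?_
  rw [Finset.sum_eq_single j]
  · rw [if_pos rfl]
    ring
  · intro j' _ h
    rw [if_neg (fun h' => h h'.symm), zero_mul, mul_zero]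
  · intro h
    exact absurd (Finset.mem_univ _) h

theorem dual_meas_one [Nonempty C] (V : Matrix C C ℂ) : dual (meas V) 1 = V := by
  rw [dual_meas, Matrix.trace_one, inv_mul_cancel₀, one_smul]
  exact_mod_cast Fintype.card_ne_zero

theorem meas_comp {J : Type} [Fintype J] (V : Matrix C C ℂ) (κ : Ker C J) :
    comp (meas V) κ = fun j j' h h' => (if j = j' then ((Fintype.card C : ℂ))⁻¹ else 0) *
      dual κ V h' h := by
  funext j j' h h'
  simp only [comp, meas, dual, Finset.mul_sum]
  refine Finset.sum_congr rfl fun i _ => Finset.sum_congr rfl fun i' _ => ?_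
  ring

theorem meas_comp' (V : Matrix C C ℂ) (κ : Ker C C) :
    comp (meas V) κ = meas (dual κ V) := meas_comp V κ

theorem comp_meas (κ : Ker C C) (h1 : app κ 1 = 1) (V : Matrix C C ℂ) :
    comp κ (meas V) = meas V := by
  funext j j' h h'
  have e : comp κ (meas V) j j' h h' = (Fintype.card C : ℂ)⁻¹ * (app κ 1 j j') * V h' h := by
    simp only [comp, meas, app, Finset.mul_sum, Finset.sum_mul, Matrix.one_apply]
    refine Finset.sum_congr rfl fun i _ => Finset.sum_congr rfl fun i' _ => ?_
    split_ifs <;> ring
  rw [e, h1, meas, Matrix.one_apply]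
  split_ifs <;> ring

theorem comp_smul {H I J : Type} [Fintype I] (c : ℂ) (κ : Ker J I) (κ' : Ker I H) :
    comp κ (c • κ') = c • comp κ κ' := by
  funext j j' h h'
  simp only [comp, Pi.smul_apply, smul_eq_mul, Finset.mul_sum]
  refine Finset.sum_congr rfl fun i _ => Finset.sum_congr rfl fun i' _ => ?_
  ring

theorem smul_comp {H I J : Type} [Fintype I] (c : ℂ) (κ : Ker J I) (κ' : Ker I H) :
    comp (c • κ) κ' = c • comp κ κ' := by
  funext j j' h h'
  simp only [comp, Pi.smul_apply, smul_eq_mul, Finset.mul_sum]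
  refine Finset.sum_congr rfl fun i _ => Finset.sum_congr rfl fun i' _ => ?_
  ring

theorem zero_comp {H I J : Type} [Fintype I] (κ' : Ker I H) :
    comp (0 : Ker J I) κ' = 0 := by
  funext j j' h h'
  simp only [comp, Pi.zero_apply, zero_mul, Finset.sum_const_zero]

theorem dual_smul {I J : Type} [Fintype J] (c : ℂ) (κ : Ker J I) (M : Matrix J J ℂ) :
    dual (c • κ) M = c • dual κ M := by
  ext i' i
  simp only [dual, Pi.smul_apply, smul_eq_mul, Finset.mul_sum, Matrix.smul_apply]
  refine Finset.sum_congr rfl fun i _ => Finset.sum_congr rfl fun i' _ => ?_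
  ring

theorem dual_zero {I J : Type} [Fintype J] (M : Matrix J J ℂ) :
    dual (0 : Ker J I) M = 0 := by
  ext i' i
  simp only [dual, Pi.zero_apply, mul_zero, Finset.sum_const_zero, Matrix.zero_apply]

theorem meas_smul (c : ℂ) (V : Matrix C C ℂ) : meas (c • V) = c • meas V := by
  funext j j' i i'
  simp only [meas, Pi.smul_apply, smul_eq_mul, Matrix.smul_apply]
  ring

theorem meas_add (V W : Matrix C C ℂ) : meas (V + W) = meas V + meas W := by
  funext j j' i i'
  simp only [meas, Pi.add_apply, Matrix.add_apply]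
  ring

theorem isCP_idk : IsCP (idk C) := by
  have h : idk C = kraus (fun _ : Unit => (1 : Matrix C C ℂ)) := by
    funext j j' i i'
    simp only [idk, kraus, Finset.univ_unique, Finset.sum_singleton, Matrix.one_apply]
    by_cases h1 : j = i <;> by_cases h2 : j' = i' <;> simp [h1, h2]
  rw [h]
  exact isCP_kraus _

theorem IsCP.smul {I J : Type} [Fintype I] [Fintype J] {κ : Ker J I} (h : IsCP κ) {r : ℝ} (hr : 0 ≤ r) :
    IsCP ((r : ℂ) • κ) := by
  obtain ⟨N, V, rfl⟩ := h
  have h1 : (r : ℂ) • kraus V = kraus fun l => ((√r : ℝ) : ℂ) • V l := by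
    funext j j' i i'
    simp only [Pi.smul_apply, smul_eq_mul, kraus, Matrix.smul_apply, Finset.mul_sum, star_mul']
    refine Finset.sum_congr rfl fun l _ => ?_
    have h2 : ((r : ℝ) : ℂ) = ((√r : ℝ) : ℂ) * ((√r : ℝ) : ℂ) := by
      rw [← Complex.ofReal_mul, Real.mul_self_sqrt hr]
    have h3 : star ((√r : ℝ) : ℂ) = ((√r : ℝ) : ℂ) := Complex.conj_ofReal _
    rw [h3, h2]
    ring
  rw [h1]
  exact isCP_kraus _

theorem isCP_meas {V : Matrix C C ℂ} (hV : V.PosSemidef) : IsCP (meas V) := by
  obtain ⟨B, hB⟩ := CStarAlgebra.nonneg_iff_eq_star_mul_self.mp hV.nonneg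
  have h : meas V = (((Fintype.card C : ℝ)⁻¹ : ℝ) : ℂ) •
      kraus (fun l : C × C => (fun p i => if p = l.1 then B l.2 i else 0 : Matrix C C ℂ)) := by
    funext j j' i i'
    have hv : V i' i = ∑ l, star (B l i') * B l i := by
      rw [hB]
      simp [Matrix.star_eq_conjTranspose, Matrix.mul_apply]
    simp only [meas, kraus, Pi.smul_apply, smul_eq_mul]
    rw [Fintype.sum_prod_type, Finset.sum_eq_single j]
    · simp only [if_true]
      by_cases hj : j = j'
      · subst hj
        simp only [if_true, hv]
        push_cast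
        congr 1
        refine Finset.sum_congr rfl fun l _ => ?_
        ring
      · simp only [if_neg hj, if_neg (fun h' : j' = j => hj h'.symm), star_zero, mul_zero,
          Finset.sum_const_zero, zero_mul]
    · intro p _ hp
      refine Finset.sum_eq_zero fun l _ => ?_
      simp only
      rw [if_neg (fun h' : j = p => hp h'.symm), zero_mul]
    · intro hn
      exact absurd (Finset.mem_univ _) hn
  rw [h]
  exact (isCP_kraus _).smul (by positivity)

/-! ### The labels -/

/-- Eve's labels: `true` = measured. -/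
noncomputable def labk (V : Matrix C C ℂ) (t : Bool) : Ker C C :=
  if t then (1 / 3 : ℂ) • meas V else (2 / 3 : ℂ) • idk C

/-- From Eve's labels (`t`, `true` = measured) to the final labels (`s`, `true` = held). -/
noncomputable def thk (V : Matrix C C ℂ) (s t : Bool) : Ker C C :=
  if s then (if t then 0 else (1 / 2 : ℂ) • idk C)
  else (if t then meas 1 else (1 / 2 : ℂ) • meas ((2 : ℂ) • 1 - V))

/-- The final maps. -/
noncomputable def gak (C : Type) [Fintype C] [DecidableEq C] (s : Bool) : Ker C C :=
  if s then (1 / 3 : ℂ) • idk C else (2 / 3 : ℂ) • meas 1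

/-- The final weights. -/
def wei (V : Matrix C C ℂ) (s : Bool) : Matrix C C ℂ := if s then V else 1

theorem site1 {T : Ker C C} (hT : app T 1 = 1) (V : Matrix C C ℂ) (t : Bool) :
    comp T (labk (dual T V) t) = comp (labk V t) T := by
  cases t
  · simp only [labk, Bool.false_eq_true, if_false, comp_smul, smul_comp, comp_idk, idk_comp]
  · simp only [labk, if_true, comp_smul, smul_comp, comp_meas T hT, meas_comp']

theorem site2 [Nonempty C] (V : Matrix C C ℂ) :
    ∑ t, dual (labk V t) 1 = (2 / 3 : ℂ) • 1 + (1 / 3 : ℂ) • V := by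
  rw [Fintype.sum_bool]
  simp only [labk, Bool.false_eq_true, if_false, if_true, dual_smul, dual_idk, dual_meas_one]
  rw [add_comm]

theorem site3 [Nonempty C] (V : Matrix C C ℂ) (s : Bool) :
    ∑ t, comp (thk V s t) (labk V t) = gak C s := by
  rw [Fintype.sum_bool]
  cases s
  · simp only [labk, thk, gak, Bool.false_eq_true, if_false, if_true, comp_smul, smul_comp,
      comp_idk, meas_comp', dual_meas_one]
    rw [← meas_smul, ← meas_smul, ← meas_smul, ← meas_smul, ← meas_add]
    congr 1
    rw [smul_smul, smul_sub, smul_smul]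
    norm_num
  · simp only [labk, thk, gak, Bool.false_eq_true, if_false, if_true, comp_smul, smul_comp,
      comp_idk, zero_comp, zero_add, smul_smul]
    norm_num

theorem site4 [Nonempty C] (V : Matrix C C ℂ) (t : Bool) :
    ∑ s, dual (thk V s t) (wei V s) = 1 := by
  rw [Fintype.sum_bool]
  cases t
  · simp only [thk, wei, Bool.false_eq_true, if_false, if_true, dual_smul, dual_idk,
      dual_meas_one]
    rw [smul_sub, smul_smul]
    norm_num
  · simp only [thk, wei, Bool.false_eq_true, if_false, if_true, dual_zero, dual_meas_one,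
      zero_add]

theorem site5 [Nonempty C] (V : Matrix C C ℂ) :
    ∑ s, dual (gak C s) (wei V s) = (2 / 3 : ℂ) • 1 + (1 / 3 : ℂ) • V := by
  rw [Fintype.sum_bool]
  simp only [gak, wei, Bool.false_eq_true, if_false, if_true, dual_smul, dual_idk,
    dual_meas_one]
  rw [add_comm]

theorem isCP_labk {V : Matrix C C ℂ} (hV : V.PosSemidef) (t : Bool) : IsCP (labk V t) := by
  cases t
  · have h := (isCP_idk (C := C)).smul (r := 2 / 3) (by norm_num)
    have e : (((2 / 3 : ℝ)) : ℂ) = 2 / 3 := by push_cast; ring
    rw [e] at h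
    exact h
  · have h := (isCP_meas hV).smul (r := 1 / 3) (by norm_num)
    have e : (((1 / 3 : ℝ)) : ℂ) = 1 / 3 := by push_cast; ring
    rw [e] at h
    exact h

theorem isCP_thk {V : Matrix C C ℂ} (hV : ((2 : ℂ) • 1 - V).PosSemidef) (s t : Bool) :
    IsCP (thk V s t) := by
  have e : (((1 / 2 : ℝ)) : ℂ) = 1 / 2 := by push_cast; ring
  cases s <;> cases t
  · have h := (isCP_meas hV).smul (r := 1 / 2) (by norm_num)
    rw [e] at h
    exact h
  · exact isCP_meas PosSemidef.one
  · have h := (isCP_idk (C := C)).smul (r := 1 / 2) (by norm_num)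
    rw [e] at h
    exact h
  · exact isCP_zero

end Vale.Agent.P372.H54
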